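import Vale.Agent.P088.R2.H808.BInf
import Vale.Agent.P088.H641.BHad
import Vale.Agent.P088.H873.BTopo

/-!
# P088, phase 2, row B_INF
-/

noncomputable section

namespace Vale.Agent.P088.HY.Bd

open Vale.Agent.P088.LR Vale.Agent.P088.LR.B

/-- Row B_INF. -/
theorem rowBINF (hbd : RowBBD) : RowBINF :=
  Vale.Agent.P088.R2.H808.binf H641.rowHAD hbd Vale.Agent.P088.H873.topo

end Vale.Agent.P088.HY.Bd
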