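import Vale.Agent.P088.R2.H794.B.Spec
import Vale.Agent.P088.H397.BInfX
import Vale.Agent.P088.H158.BMapE

/-!
# P088, phase 2, row B_INF: contact of infinite order at the boundary, general base `s`
-/

open MeasureTheory Set Filter Topology
open scoped ContDiff Matrix

noncomputable section

namespace Vale.Agent.P088.R2.H808

open Vale.Agent.P088.LR Vale.Agent.P088.LR.B Vale.Agent.P088.LR.CF Vale.Agent.P088.H639
  Vale.Agent.P088.H397 Vale.Agent.P088.HY.Bd

variable {n : ℕ}

/-- The normal component of the leading coefficient of `t - s = ρ ^ m b` vanishes at the boundary: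
the divergence is taken against `n` fields `G a`, linearly independent at the boundary. -/
theorem normalS {ρ : V n → ℝ} (hρ : ContDiff ℝ ∞ ρ) (hd : Dense {x | ρ x ≠ 0}) {s t : MF n} {m : ℕ}
    {b : Fin n → Fin n → V n → ℝ} (hb : ∀ i j, ContDiff ℝ ∞ (b i j))
    (hs : ∀ i j x, b i j x = b j i x)
    {G : Fin n → Fin n → V n → ℝ} (hG : ∀ a i, ContDiff ℝ ∞ (G a i))
    (hinv : ∀ x, ρ x = 0 → ∀ v : Fin n → ℝ, (∀ a, ∑ i, G a i x * v i = 0) → ∀ i, v i = 0)
    (he : ∀ x i j, t x i j - s x i j = ρ x ^ m * b i j x)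
    (h0 : ∀ i x, ρ x = 0 → ∑ j, (t x i j - s x i j) * pd j ρ x = 0)
    (h1 : ∀ a, ∃ r > 0, ∃ E : V n → ℝ, ContDiff ℝ ∞ E ∧ ∀ x, |ρ x| < r →
      ∑ j, pd j (fun y => ∑ i, (t y j i - s y j i) * G a i y) x = ρ x ^ m * E x)
    (x : V n) (hx : ρ x = 0) (i : Fin n) :
    ∑ j, b i j x * pd j ρ x = 0 := by
  rcases Nat.eq_zero_or_pos m with rfl | hm
  · have := h0 i x hx
    simpa [he] using this
  refine hinv x hx (fun i => ∑ j, b i j x * pd j ρ x) (fun a => ?_) i
  have h := normal0 hρ hd hm (T := fun j y => ∑ i, (t y j i - s y j i) * G a i y)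
    (c := fun j y => ∑ i, b j i y * G a i y)
    (fun j => ContDiff.sum fun i _ => (hb j i).mul (hG a i))
    (fun j y => by
      rw [Finset.mul_sum]
      exact Finset.sum_congr rfl fun i _ => by rw [he y j i]; ring) (h1 a) x hx
  rw [← h]
  simp only [Finset.mul_sum, Finset.sum_mul]
  rw [Finset.sum_comm]
  refine Finset.sum_congr rfl fun j _ => Finset.sum_congr rfl fun i _ => ?_
  rw [hs i j x]
  ring

/-- Contact of infinite order, abstract form, general base. -/
theorem infS (hhad : RowHAD) (htopo : RowTOPO) {ρ : V n → ℝ} (D : Dom ρ)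
    {s t : MF n} (hsm : SmM s) (ht : SmM t) (hss : ∀ x i j, s x i j = s x j i)
    (hts : ∀ x i j, t x i j = t x j i)
    {G : Fin n → Fin n → V n → ℝ} (hG : ∀ a i, ContDiff ℝ ∞ (G a i))
    (hinv : ∀ x, ρ x = 0 → ∀ v : Fin n → ℝ, (∀ a, ∑ i, G a i x * v i = 0) → ∀ i, v i = 0)
    (hnor : ∀ i x, ρ x = 0 → ∑ j, (t x i j - s x i j) * pd j ρ x = 0)
    (hdiv : ∀ a (m : ℕ), ∃ r > 0, ∃ E : V n → ℝ, ContDiff ℝ ∞ E ∧ ∀ x, |ρ x| < r →
      ∑ j, pd j (fun y => ∑ i, (t y j i - s y j i) * G a i y) x = ρ x ^ m * E x)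
    (step : ∀ (m : ℕ) (b : Fin n → Fin n → V n → ℝ), (∀ i j, ContDiff ℝ ∞ (b i j)) →
      (∀ i j x, b i j x = b j i x) → (∀ x i j, t x i j - s x i j = ρ x ^ m * b i j x) →
      (∀ x, ρ x = 0 → ∀ i, ∑ j, b i j x * pd j ρ x = 0) → ∀ x, ρ x = 0 → ∀ i j, b i j x = 0) :
    ∀ m : ℕ, ∃ b : Fin n → Fin n → V n → ℝ, (∀ i j, ContDiff ℝ ∞ (b i j)) ∧
      ∀ x i j, t x i j - s x i j = ρ x ^ m * b i j x := by
  have hd : Dense {x | ρ x ≠ 0} := (htopo ρ D).2.2.2.2.2
  intro m
  induction m with
  | zero => exact ⟨fun i j x => t x i j - s x i j,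
      fun i j => (ht i j).sub (hsm i j), fun x i j => by simp⟩
  | succ m ih =>
    obtain ⟨b, hb, he⟩ := ih
    have hsym : ∀ i j x, b i j x = b j i x := by
      intro i j x
      have : b i j x - b j i x = 0 := by
        refine eq_of_dense (F := fun y => b i j y - b j i y) hd D.sm.continuous (r := |ρ x| + 1)
          (by positivity) ((hb i j).continuous.sub (hb j i).continuous) (fun y hy _ => ?_)
          (by linarith)
        have h1 := he y i j
        have h2 := he y j i
        rw [hts y, hss y] at h1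
        have h3 : ρ y ^ m * (b i j y - b j i y) = 0 := by rw [mul_sub, ← h1, ← h2, sub_self]
        exact (mul_eq_zero.1 h3).resolve_left (pow_ne_zero m hy)
      linarith
    have hz := step m b hb hsym he (fun x hx i =>
      normalS D.sm hd hb hsym hG hinv he hnor (fun a => hdiv a m) x hx i)
    have hg := fun i j => hhad ρ D.sm D.nz (b i j) (hb i j) (fun x hx => hz x hx i j)
    choose g hg1 hg2 using hg
    exact ⟨g, hg1, fun x i j => by rw [he x i j, hg2 i j x, pow_succ, mul_assoc]⟩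

/-- Row B_INF, with the stage-2 rows HAD and TOPO as arguments. -/
theorem binf (hhad : RowHAD) (hbd : RowBBD) (htopo : RowTOPO) : RowBINF := by
  intro n hn μ hμ
  obtain ⟨a₀, ha₀, hB⟩ := hbd n hn μ hμ
  refine ⟨a₀, ha₀, fun ρ D s t hs ht hsp htp hE hSE hsmall w₁ hw₁ hdet hnor hd1 hd2 => ?_⟩
  have hts : ∀ x i j, t x i j = t x j i := fun x i j => by
    simpa using ((htp x).1.apply i j).symm
  have hss : ∀ x i j, s x i j = s x j i := fun x i j => by
    simpa using ((hsp x).1.apply i j).symm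
  have hX : ∀ a, ContDiff ℝ ∞ (fun y : V n => y a + w₁ y a) := fun a =>
    (contDiff_apply ℝ ℝ a).add (contDiff_pi.1 hw₁ a)
  have hG : ∀ a i, ContDiff ℝ ∞ (pd i (fun y : V n => y a + w₁ y a)) := fun a i => by
    have h := (hX a).fderiv_right (m := ∞) (by simp)
    exact h.clm_apply contDiff_const
  have hinv : ∀ x, ρ x = 0 → ∀ v : Fin n → ℝ,
      (∀ a, ∑ i, pd i (fun y : V n => y a + w₁ y a) x * v i = 0) → ∀ i, v i = 0 := by
    intro x hx v hv
    have h1 : (jm w₁ x).mulVec v = 0 := by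
      funext a
      have := hv a
      simp only [Vale.Agent.P088.LR.B.H158.pd_H hw₁] at this
      simpa [Matrix.mulVec, dotProduct] using this
    have h2 := Matrix.eq_zero_of_mulVec_eq_zero (hdet x hx) h1
    intro i
    rw [h2]
    rfl
  refine infS hhad htopo D hs ht hss hts (G := fun a i => pd i (fun y : V n => y a + w₁ y a))
    hG hinv ?_ ?_ ?_
  · intro i x hx
    refine hinv x hx (fun i => ∑ j, (t x i j - s x i j) * pd j ρ x) (fun a => ?_) i
    have h := hnor a x hx
    simp only [gr] at h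
    rw [← sub_eq_zero] at h
    rw [← h, ← Finset.sum_sub_distrib]
    refine Finset.sum_congr rfl fun i _ => ?_
    rw [← Finset.sum_sub_distrib, Finset.mul_sum]
    exact Finset.sum_congr rfl fun j _ => by ring
  · intro a m
    obtain ⟨r1, hr1, E1, hE1, h1⟩ := hd1 a m
    obtain ⟨r2, hr2, E2, hE2, h2⟩ := hd2 a m
    refine ⟨min r1 r2, lt_min hr1 hr2, fun x => E1 x - E2 x, hE1.sub hE2, fun x hx => ?_⟩
    have e1 := h1 x (hx.trans_le (min_le_left _ _))
    have e2 := h2 x (hx.trans_le (min_le_right _ _))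
    rw [mul_sub, ← e1, ← e2]
    unfold dr
    rw [← Finset.sum_sub_distrib]
    refine Finset.sum_congr rfl fun j _ => ?_
    have dA : DifferentiableAt ℝ (fun y => ∑ i, t y j i * pd i (fun y : V n => y a + w₁ y a) y) x :=
      ((ContDiff.sum fun i _ => (ht j i).mul (hG a i)).differentiable (by simp)).differentiableAt
    have dB : DifferentiableAt ℝ
        (fun y => ∑ i, s y j i * pd i (fun y : V n => y a + w₁ y a) y) x :=
      ((ContDiff.sum fun i _ => (hs j i).mul (hG a i)).differentiable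
        (by simp)).differentiableAt
    have e : (fun y => ∑ i, (t y j i - s y j i) * pd i (fun y : V n => y a + w₁ y a) y) =
        fun y => (∑ i, t y j i * pd i (fun y : V n => y a + w₁ y a) y) -
          ∑ i, s y j i * pd i (fun y : V n => y a + w₁ y a) y := by
      funext y
      rw [← Finset.sum_sub_distrib]
      exact Finset.sum_congr rfl fun i _ => by ring
    rw [e]
    unfold pd at dA dB ⊢
    have := fderiv_sub dA dB
    rw [show (fun y => (∑ i, t y j i * fderiv ℝ (fun y : V n => y a + w₁ y a) y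
        (Pi.single i 1)) - ∑ i, s y j i * fderiv ℝ (fun y : V n => y a + w₁ y a) y
        (Pi.single i 1)) = (fun y => ∑ i, t y j i * fderiv ℝ (fun y : V n => y a + w₁ y a) y
        (Pi.single i 1)) - fun y => ∑ i, s y j i * fderiv ℝ (fun y : V n => y a + w₁ y a) y
        (Pi.single i 1) from rfl, this]
    rfl
  · intro m b hb hbs he ht1 x hx i j
    exact hB ρ D s t hs ht hsp htp hE hSE hsmall m b hb hbs he ht1 x hx i j

end Vale.Agent.P088.R2.H808
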